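import Vale.Agent.P207.N7.H469.T2g
import Vale.Agent.P207.N7.H547.AffLemB
import Vale.Agent.P207.N4.H709.DarB

/-!
# P207, line N7, row T2-GLUE: the inputs `DlB` and `NearP`

`near_of` : a property which holds near the pairs `(x, em x)`, invariant under the group, holds for
all pairs with small angle.
-/

set_option linter.unusedSectionVars false

open Set Filter Topology Metric
open scoped ContDiff

noncomputable section

namespace Vale.Agent.P207.N4.Y.H469

open Vale.Agent.P207.N3 Vale.Agent.P207.H469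

variable [Dim]

variable {Γ X B : Type} [Group Γ] [MetricSpace X] [ProperSpace X] [MulAction Γ X]
  [IsIsometricSMul Γ X] [TopologicalSpace B] [CompactSpace B] [T2Space B] [MulAction Γ B]
  [ContinuousConstSMul Γ B] [MeasurableSpace B] [BorelSpace B] {L : Leaf Γ X B}
  {V : Type} [NormedAddCommGroup V] [NormedSpace ℝ V] [FiniteDimensional ℝ V]

variable (P : Pic L V)

/-- the generating functions are smooth, with uniform bounds -/
theorem dlB : DlB P := by
  have h2 := P.Af.two_lt_rad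
  refine ⟨fun x ξ q hq => ?_, fun k => ?_⟩
  · refine (P.dl_smooth x ξ (P.Af.closedBall_dT x ?_)).contDiffWithinAt
    exact closedBall_subset_closedBall (by norm_num) (ball_subset_closedBall hq)
  · obtain ⟨M, hM⟩ := P.dl_bound (r := 1) (by linarith) k
    exact ⟨M, fun x ξ q hq => hM x ξ q (ball_subset_closedBall hq)⟩

theorem gr0_cont : Continuous fun p : X × B => P.gr p.1 p.2 0 := by
  have h1 : (fun p : X × B => P.gr p.1 p.2 0) = fun p => P.Af.c⁻¹ •
      gradient (P.Bu.be p.1 p.2) 0 := by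
    funext p
    exact P.gr_zero p.1 p.2
  rw [h1]
  have h2 : Continuous fun p : X × B => gradient (P.Bu.be p.1 p.2) 0 := H709.grad0_cont P.Bu
  exact h2.const_smul P.Af.c⁻¹

theorem eq_em (x : X) (ξ : B) (hnu : 0 ≤ P.Bu.nu x ξ 0) (h : P.gr x ξ 0 = 0) : ξ = L.em x := by
  rw [P.gr_zero, smul_eq_zero_iff_right (inv_ne_zero P.Af.c_pos.ne')] at h
  refine P.Bu.cov_inj x ξ (L.em x) 0 (mem_ball_self (by norm_num)) hnu (P.Bu.nu_em x).le ?_
  rw [h, P.Bu.be_crit]

theorem nr_smul (g : Γ) {ε : ℝ} {x : X} {ξ : B} (h : P.Nr ε x ξ) : P.Nr ε (g • x) (g • ξ) := by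
  refine ⟨?_, ?_⟩
  · rw [P.Bu.nu_smul g x ξ 0 (mem_ball_self (by norm_num))]
    exact h.1
  · rw [P.gr_smul g (P.Af.zero_dT x) ξ]
    exact h.2

/-- a property which holds near the pairs `(x, em x)`, invariant under the group, holds for
all pairs with small angle. -/
theorem near_of {R : X → B → Prop} (hinv : ∀ (g : Γ) x ξ, R (g • x) (g • ξ) → R x ξ)
    (h : ∀ x, ∀ᶠ p : X × B in 𝓝 (x, L.em x), R p.1 p.2) :
    ∃ ε > 0, ∀ x ξ, P.Nr ε x ξ → R x ξ := by
  obtain ⟨K, hK, hK'⟩ := L.cocompact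
  set U : Set (X × B) := interior {p : X × B | R p.1 p.2} with hU
  set C : Set (X × B) := (K ×ˢ univ) ∩ ({p | 0 ≤ P.Bu.nu p.1 p.2 0} ∩ Uᶜ) with hC
  have hCc : IsCompact C := by
    refine (hK.prod isCompact_univ).inter_right ?_
    refine IsClosed.inter ?_ isOpen_interior.isClosed_compl
    exact isClosed_le continuous_const (H709.nu0_cont P.Bu)
  have hpos : ∀ p ∈ C, 0 < ‖P.gr p.1 p.2 0‖ := by
    rintro ⟨x, ξ⟩ ⟨-, h1, h2⟩
    rw [norm_pos_iff]
    intro h3
    have h4 := eq_em P x ξ h1 h3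
    subst h4
    exact h2 (mem_interior_iff_mem_nhds.2 (h x))
  obtain ⟨ε, hε, hε'⟩ : ∃ ε > 0, ∀ p ∈ C, ε < ‖P.gr p.1 p.2 0‖ := by
    rcases C.eq_empty_or_nonempty with h1 | h1
    · exact ⟨1, one_pos, by rw [h1]; simp⟩
    · obtain ⟨p, hp, hmin⟩ := hCc.exists_isMinOn h1 (gr0_cont P).norm.continuousOn
      refine ⟨‖P.gr p.1 p.2 0‖ / 2, by have := hpos p hp; positivity, fun q hq => ?_⟩
      have h2 : ‖P.gr p.1 p.2 0‖ ≤ ‖P.gr q.1 q.2 0‖ := hmin hq
      have h3 := hpos p hp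
      linarith
  refine ⟨ε, hε, fun x ξ hx => ?_⟩
  obtain ⟨g, hg⟩ := hK' x
  have h1 := nr_smul P g hx
  refine hinv g x ξ ?_
  by_contra h2
  have h3 : (g • x, g • ξ) ∈ C := by
    refine ⟨⟨hg, mem_univ _⟩, h1.1.le, fun h4 => h2 ?_⟩
    exact (interior_subset : interior {p : X × B | R p.1 p.2} ⊆ {p : X × B | R p.1 p.2}) h4
  have h4 := hε' _ h3
  exact absurd h1.2 (not_le.2 h4)

/-- small angle means small gradient -/
theorem near1 {s : ℝ} (hs : 0 < s) : ∃ ε > 0, ∀ x ξ, P.Nr ε x ξ → ∀ q ∈ ball (0 : E2) 1,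
    ‖P.gr x ξ q‖ ≤ s := by
  refine near_of P (R := fun x ξ => ∀ q ∈ ball (0 : E2) 1, ‖P.gr x ξ q‖ ≤ s) ?_ ?_
  · intro g x ξ h q hq
    have h1 : q ∈ closedBall (0 : E2) 2 :=
      closedBall_subset_closedBall (by norm_num) (ball_subset_closedBall hq)
    rw [← P.gr_smul g (P.Af.closedBall_dT x h1) ξ]
    exact h q hq
  · intro x
    have h1 : ∀ᶠ p in 𝓝 (x, L.em x), ∀ q ∈ closedBall (0 : E2) 1, ‖P.gr p.1 p.2 q‖ < s := by
      refine (isCompact_closedBall (0 : E2) 1).eventually_forall_of_forall_eventually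
        (x₀ := (x, L.em x)) (P := fun (p : X × B) q => ‖P.gr p.1 p.2 q‖ < s) fun q hq => ?_
      have h2 : q ∈ closedBall (0 : E2) 2 := closedBall_subset_closedBall (by norm_num) hq
      have h3 : ContinuousAt (fun p : (X × B) × E2 => P.gr p.1.1 p.1.2 p.2) ((x, L.em x), q) :=
        P.gr_jc.continuousOn.continuousAt
          (P.isOpen_dTB.mem_nhds (P.closedBall_dTB x (L.em x) h2))
      have h4 : ‖P.gr x (L.em x) q‖ < s := by
        rw [P.gr_em x (P.Af.closedBall_dT x h2), norm_zero]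
        exact hs
      exact h3.norm.eventually (gt_mem_nhds h4)
    exact h1.mono fun p hp q hq => (hp q (ball_subset_closedBall hq)).le

/-- small angle at one time means small angle one unit of time earlier -/
theorem near2 {ε : ℝ} (hε : 0 < ε) : ∃ ε' > 0, ∀ x ξ, P.Nr ε' x ξ → P.Nr ε (L.φ (-1) x) ξ := by
  refine near_of P (R := fun x ξ => P.Nr ε (L.φ (-1) x) ξ) ?_ ?_
  · intro g x ξ h
    have h1 := nr_smul P g⁻¹ h
    rwa [L.φ_smul, inv_smul_smul, inv_smul_smul] at h1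
  · intro x
    have hφ : Continuous fun p : X × B => ((L.φ (-1) p.1, p.2) : X × B) :=
      ((L.φ_cont.comp (by fun_prop : Continuous fun p : X × B => ((-1 : ℝ), p.1))).prodMk
        continuous_snd)
    have h1 : Continuous fun p : X × B => P.Bu.nu (L.φ (-1) p.1) p.2 0 :=
      (H709.nu0_cont P.Bu).comp hφ
    have h2 : Continuous fun p : X × B => P.gr (L.φ (-1) p.1) p.2 0 := (gr0_cont P).comp hφ
    have h3 : 0 < P.Bu.nu (L.φ (-1) x) (L.em x) 0 := by
      have := P.Bu.nu_em (L.φ (-1) x)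
      rwa [L.em_φ] at this
    have h4 : ‖P.gr (L.φ (-1) x) (L.em x) 0‖ < ε := by
      have h5 := P.gr_em (L.φ (-1) x) (P.Af.zero_dT _)
      rw [L.em_φ] at h5
      rw [h5, norm_zero]
      exact hε
    have e1 : ∀ᶠ p in 𝓝 (x, L.em x), 0 < P.Bu.nu (L.φ (-1) p.1) p.2 0 :=
      (h1.continuousAt (x := (x, L.em x))).eventually (lt_mem_nhds h3)
    have e2 : ∀ᶠ p in 𝓝 (x, L.em x), ‖P.gr (L.φ (-1) p.1) p.2 0‖ < ε :=
      (h2.norm.continuousAt (x := (x, L.em x))).eventually (gt_mem_nhds h4)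
    filter_upwards [e1, e2] with p h5 h6
    exact ⟨h5, h6.le⟩

theorem nearP : NearP P :=
  ⟨fun _ hs => near1 P hs, fun _ hε => near2 P hε, fun x ξ h1 h2 => eq_em P x ξ h1.le h2⟩

end Vale.Agent.P207.N4.Y.H469

end
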